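import Vale.Agent.P192.R2.H360.R.Defs2

set_option linter.all false

/-! Row R7. -/

namespace Vale.Agent.P192.R2.H848

open Vale.Agent.P192 Vale.Agent.P192.H437 Vale.Agent.P192.H593 Vale.Agent.P192.R2.H577
open Vale.Agent.P192.R2.H360.R
open scoped Pointwise

section

variable {H A Q : Type} [Group H] [DecidableEq H] {G : Type} [Group G] {S : Set G} {T : Finset H}
  [MulAction G (Cf H A Q)]

theorem track (hM : MA (H := H) (A := A) (Q := Q) G S T) {l : ℕ} {z z0 : Cf H A Q}
    (h2 : z0.2 = z.2) (h1 : ∀ p, z.2.1⁻¹ * p ∈ T ^ l → z0.1 p = z.1 p) (w : List G)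
    (hw : ∀ s ∈ w, s ∈ S ∨ s⁻¹ ∈ S) (hl : w.length ≤ l) :
    (w.prod • z0).2 = (w.prod • z).2 ∧ z.2.1⁻¹ * (w.prod • z).2.1 ∈ T ^ w.length ∧
      (∀ p, z.2.1⁻¹ * p ∈ T ^ l → (w.prod • z0).1 p = (w.prod • z).1 p) ∧
      ∀ p, z.2.1⁻¹ * p ∉ T ^ w.length →
        (w.prod • z).1 p = z.1 p ∧ (w.prod • z0).1 p = z0.1 p := by
  induction w with
  | nil =>
    simp only [List.prod_nil, one_smul, List.length_nil, pow_zero, inv_mul_cancel]
    exact ⟨h2, Finset.one_mem_one, h1, fun p _ => by constructor <;> trivial⟩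
  | cons s w ih =>
    have hk : w.length + 1 ≤ l := by simpa using hl
    obtain ⟨i1, i2, i3, i4⟩ := ih (fun t ht => hw t (by simp [ht])) (by omega)
    rw [List.prod_cons, mul_smul, mul_smul, List.length_cons]
    set u' := w.prod • z0 with hu'
    set v' := w.prod • z with hv'
    obtain ⟨m1, m2, m3⟩ := hM.mach s (hw s (by simp))
    have hhd : u'.2.1 = v'.2.1 := by rw [i1]
    have hst : u'.2.2 = v'.2.2 := by rw [i1]
    have hwin : ∀ τ ∈ T, u'.1 (u'.2.1 * τ) = v'.1 (v'.2.1 * τ) := by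
      intro τ hτ
      rw [hhd]
      apply i3
      have h3 : z.2.1⁻¹ * (v'.2.1 * τ) = (z.2.1⁻¹ * v'.2.1) * τ := by rw [mul_assoc]
      rw [h3]
      have h4 : (z.2.1⁻¹ * v'.2.1) * τ ∈ T ^ (w.length + 1) := by
        rw [pow_succ]; exact Finset.mul_mem_mul i2 hτ
      exact Finset.pow_subset_pow_right hM.one hk h4
    obtain ⟨n1, n2, n3⟩ := m3 u' v' hst hwin
    simp only at m1 m2 n1 n2 n3
    have hhd2 : (s • u').2.1 = (s • v').2.1 := by
      rw [hhd] at n1
      exact mul_left_cancel n1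
    have hnw : ∀ p, v'.2.1⁻¹ * p ∉ T → (s • u').1 p = u'.1 p ∧ (s • v').1 p = v'.1 p := by
      intro p hp
      constructor
      · by_contra hc
        apply hp
        rw [← hhd]
        exact m2 u' p hc
      · by_contra hc
        exact hp (m2 v' p hc)
    refine ⟨Prod.ext hhd2 n2, ?_, ?_, ?_⟩
    · have h3 : z.2.1⁻¹ * (s • v').2.1 = (z.2.1⁻¹ * v'.2.1) * (v'.2.1⁻¹ * (s • v').2.1) := by
        group
      rw [h3, pow_succ]
      exact Finset.mul_mem_mul i2 (m1 v')
    · intro p hp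
      by_cases hpT : v'.2.1⁻¹ * p ∈ T
      · have h3 := n3 _ hpT
        rw [hhd, mul_inv_cancel_left] at h3
        exact h3
      · rw [(hnw p hpT).1, (hnw p hpT).2]
        exact i3 p hp
    · intro p hp
      have hpT : v'.2.1⁻¹ * p ∉ T := by
        intro hc
        apply hp
        have h3 : z.2.1⁻¹ * p = (z.2.1⁻¹ * v'.2.1) * (v'.2.1⁻¹ * p) := by group
        rw [h3, pow_succ]
        exact Finset.mul_mem_mul i2 hc
      have hp' : z.2.1⁻¹ * p ∉ T ^ w.length := fun hc =>
        hp (Finset.pow_subset_pow_right hM.one (Nat.le_succ _) hc)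
      rw [(hnw p hpT).1, (hnw p hpT).2]
      exact i4 p hp'

theorem same (hM : MA (H := H) (A := A) (Q := Q) G S T) {l : ℕ} {z z0 : Cf H A Q}
    (h2 : z0.2 = z.2) (h1 : ∀ p, z.2.1⁻¹ * p ∈ T ^ l → z0.1 p = z.1 p) (w w' : List G)
    (hw : ∀ s ∈ w, s ∈ S ∨ s⁻¹ ∈ S) (hl : w.length ≤ l)
    (hw' : ∀ s ∈ w', s ∈ S ∨ s⁻¹ ∈ S) (hl' : w'.length ≤ l)
    (he : w.prod • z0 = w'.prod • z0) : w.prod • z = w'.prod • z := by
  obtain ⟨a1, a2, a3, a4⟩ := track hM h2 h1 w hw hl
  obtain ⟨b1, b2, b3, b4⟩ := track hM h2 h1 w' hw' hl'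
  refine Prod.ext ?_ ?_
  · funext p
    by_cases hp : z.2.1⁻¹ * p ∈ T ^ l
    · rw [← a3 p hp, ← b3 p hp, he]
    · rw [(a4 p fun hc => hp (Finset.pow_subset_pow_right hM.one hl hc)).1,
        (b4 p fun hc => hp (Finset.pow_subset_pow_right hM.one hl' hc)).1]
  · rw [← a1, ← b1, he]

end

/-- an orbit with at most `n` points is exhausted by the words of length at most `n` -/
theorem hop_of_small {G : Type} [Group G] {X : Type} [MulAction G X] {S : Set G}
    (hS : Subgroup.closure S = ⊤) (x : X) (n : ℕ) (hn : (MulAction.orbit G x).encard ≤ n) :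
    ∀ y ∈ MulAction.orbit G x, hop S n x y := by
  have hfin : (MulAction.orbit G x).Finite := Set.finite_of_encard_le_coe hn
  have hsub : ∀ k, {y | hop S k x y} ⊆ MulAction.orbit G x := by
    rintro k y ⟨w, _, _, rfl⟩
    exact MulAction.mem_orbit _ _
  have hclosed : ∀ k, (∀ y, hop S (k + 1) x y → hop S k x y) →
      MulAction.orbit G x ⊆ {y | hop S k x y} := by
    rintro k hk _ ⟨g, rfl⟩
    obtain ⟨w, hw, rfl⟩ := exists_list S hS g
    show hop S k x (w.prod • x)
    induction w with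
    | nil => exact ⟨[], by simp, by simp, rfl⟩
    | cons s w ih =>
      obtain ⟨v, hv, hvl, hve⟩ := ih fun t ht => hw t (by simp [ht])
      apply hk
      refine ⟨s :: v, ?_, by simpa using hvl, ?_⟩
      · intro t ht
        rcases List.mem_cons.1 ht with rfl | h
        · exact hw _ (by simp)
        · exact hv t h
      · rw [List.prod_cons, List.prod_cons, mul_smul, mul_smul, hve]
  have key : ∀ k, k + 1 ≤ ({y | hop S k x y} : Set X).ncard ∨
      MulAction.orbit G x ⊆ {y | hop S k x y} := by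
    intro k
    induction k with
    | zero =>
      left
      have hf : ({y | hop S 0 x y} : Set X).Finite := hfin.subset (hsub 0)
      have : 0 < ({y | hop S 0 x y} : Set X).ncard :=
        (Set.ncard_pos hf).2 ⟨x, [], by simp, by simp, by simp⟩
      omega
    | succ k ih =>
      have hmono : {y | hop S k x y} ⊆ {y | hop S (k + 1) x y} := fun y hy => hop_le (by omega) hy
      rcases ih with ih | ih
      · by_cases hc : ∀ y, hop S (k + 1) x y → hop S k x y
        · right
          exact (hclosed k hc).trans hmono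
        · left
          push Not at hc
          obtain ⟨y, hy, hy'⟩ := hc
          have hf : ({y | hop S (k + 1) x y} : Set X).Finite := hfin.subset (hsub _)
          have : ({y | hop S k x y} : Set X).ncard < ({y | hop S (k + 1) x y} : Set X).ncard :=
            Set.ncard_lt_ncard ⟨hmono, fun h => hy' (h hy)⟩ hf
          omega
      · right
        exact ih.trans hmono
  rcases key n with h | h
  · exfalso
    have h1 : ({y | hop S n x y} : Set X).ncard ≤ (MulAction.orbit G x).ncard :=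
      Set.ncard_le_ncard (hsub n) hfin
    have h2 : (MulAction.orbit G x).ncard ≤ n := by
      rw [← hfin.cast_ncard_eq] at hn
      exact_mod_cast hn
    omega
  · exact fun y hy => h hy

theorem r7 : R7 := by
  intro h6 H _ _ hH A Q _ _ a0 G _ _ hG S T _ hM D
  obtain ⟨l6, h6'⟩ := h6 H hH A Q a0 G hG S T hM D
  refine ⟨D + l6 + 3, by omega, fun z hz => ?_⟩
  set l := D + l6 + 3 with hl
  classical
  let z0 : Cf H A Q := (fun p => if z.2.1⁻¹ * p ∈ T ^ D then z.1 p else a0, z.2)
  have e2 : z0.2 = z.2 := rfl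
  have e1 : ∀ p, z.2.1⁻¹ * p ∈ T ^ l → z0.1 p = z.1 p := by
    intro p hp
    show (if z.2.1⁻¹ * p ∈ T ^ D then z.1 p else a0) = z.1 p
    split_ifs with h
    · rfl
    · by_contra hc
      exact h (hz p (fun h' => hc h'.symm) hp)
  have e3 : ∀ p, z0.1 p ≠ a0 → z.2.1⁻¹ * p ∈ T ^ D := by
    intro p hp
    by_contra hc
    exact hp (if_neg hc)
  rcases h6' z0 e3 with h | ⟨w0, ⟨w, hw, hwl, hwe⟩, p, hp1, hp2⟩
  · left
    have hsm := hop_of_small hM.gen z0 l6 h
    have key : ∀ w : List G, (∀ s ∈ w, s ∈ S ∨ s⁻¹ ∈ S) → ∃ v : List G,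
        (∀ s ∈ v, s ∈ S ∨ s⁻¹ ∈ S) ∧ v.length ≤ l6 ∧ v.prod • z = w.prod • z := by
      intro w hw
      induction w with
      | nil => exact ⟨[], by simp, by simp, rfl⟩
      | cons s w ih =>
        obtain ⟨v, hv, hvl, hve⟩ := ih fun t ht => hw t (by simp [ht])
        have hsv : ∀ t ∈ s :: v, t ∈ S ∨ t⁻¹ ∈ S := by
          intro t ht
          rcases List.mem_cons.1 ht with rfl | h
          · exact hw _ (by simp)
          · exact hv t h
        obtain ⟨v', hv', hvl', hve'⟩ := hsm ((s :: v).prod • z0) (MulAction.mem_orbit _ _)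
        refine ⟨v', hv', hvl', ?_⟩
        have h3 := same hM e2 e1 v' (s :: v) hv' (by omega) hsv
          (by rw [List.length_cons]; omega) hve'
        rw [h3, List.prod_cons, List.prod_cons, mul_smul, mul_smul, hve]
    choose! φ hφ1 hφ2 hφ3 using hsm
    have hsub : MulAction.orbit G z ⊆ (fun u => (φ u).prod • z) '' MulAction.orbit G z0 := by
      rintro _ ⟨g, rfl⟩
      obtain ⟨w, hw, rfl⟩ := exists_list S hM.gen g
      obtain ⟨v, hv, hvl, hve⟩ := key w hw
      have hmem : v.prod • z0 ∈ MulAction.orbit G z0 := MulAction.mem_orbit _ _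
      refine ⟨v.prod • z0, hmem, ?_⟩
      show (φ (v.prod • z0)).prod • z = w.prod • z
      rw [← hve]
      exact same hM e2 e1 _ _ (hφ1 _ hmem) ((hφ2 _ hmem).trans (by omega)) hv (by omega)
        (hφ3 _ hmem)
    calc (MulAction.orbit G z).encard
        ≤ ((fun u => (φ u).prod • z) '' MulAction.orbit G z0).encard := Set.encard_le_encard hsub
      _ ≤ (MulAction.orbit G z0).encard := Set.encard_image_le _ _
      _ ≤ (l6 : ℕ∞) := h
      _ ≤ (l : ℕ∞) := by exact_mod_cast (by omega : l6 ≤ l)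
  · right
    obtain ⟨a1, a2, a3, a4⟩ := track hM e2 e1 w hw (by omega)
    have hpw : T ^ w.length ⊆ T ^ l := Finset.pow_subset_pow_right hM.one (by omega)
    have hpD : T ^ D ⊆ T ^ l := Finset.pow_subset_pow_right hM.one (by omega)
    have hpl : z.2.1⁻¹ * p ∈ T ^ l := by
      by_contra hc
      apply hp1
      rw [← hwe, (a4 p fun h => hc (hpw h)).2]
      by_contra hc2
      exact hc (hpD (e3 p hc2))
    refine ⟨w.prod • z, MulAction.mem_orbit _ _, hpw a2, ?_, p, ?_, ?_, hpl⟩
    · intro q hq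
      by_contra hc
      exact hq (a4 q fun h => hc (hpw h)).1
    · rw [← a3 p hpl, hwe]
      exact hp1
    · rw [← a1, hwe]
      exact hp2

end Vale.Agent.P192.R2.H848
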